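import Vale.Agent.P181.H303.Spec

/-!
P181, rows TI: toolkit for `AH` (finite combinations with bounded sum of coefficients).
-/

set_option autoImplicit false

namespace Vale.Agent.P181.H818

open Finset Vale.Agent.P181.H303

section Tk

variable {W : Type*} [AddCommGroup W] [Module ℂ W] {G H : Set W} {c d : ℝ} {x y : W}

theorem ah_mono (h : c ≤ d) (hx : x ∈ AH G c) : x ∈ AH G d := by
  obtain ⟨m, w, g, hg, hw, rfl⟩ := hx
  exact ⟨m, w, g, hg, hw.trans h, rfl⟩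

theorem ah_sub (h : G ⊆ H) (hx : x ∈ AH G c) : x ∈ AH H c := by
  obtain ⟨m, w, g, hg, hw, rfl⟩ := hx
  exact ⟨m, w, g, fun i => h (hg i), hw, rfl⟩

theorem ah_of (hx : x ∈ G) : x ∈ AH G 1 :=
  ⟨1, fun _ => 1, fun _ => x, fun _ => hx, by simp, by simp⟩

theorem ah_zero (hc : 0 ≤ c) : (0 : W) ∈ AH G c :=
  ⟨0, Fin.elim0, Fin.elim0, fun i => i.elim0, by simpa using hc, by simp⟩

theorem ah_nonneg (hx : x ∈ AH G c) : 0 ≤ c := by
  obtain ⟨m, w, g, hg, hw, rfl⟩ := hx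
  exact (Finset.sum_nonneg fun i _ => norm_nonneg _).trans hw

theorem ah_add (hx : x ∈ AH G c) (hy : y ∈ AH G d) : x + y ∈ AH G (c + d) := by
  obtain ⟨m, w, g, hg, hw, rfl⟩ := hx
  obtain ⟨n, v, h, hh, hv, rfl⟩ := hy
  refine ⟨m + n, Fin.append w v, Fin.append g h, ?_, ?_, ?_⟩
  · intro i
    refine Fin.addCases (fun i => ?_) (fun i => ?_) i
    · rw [Fin.append_left]; exact hg i
    · rw [Fin.append_right]; exact hh i
  · rw [Fin.sum_univ_add]
    simp only [Fin.append_left, Fin.append_right]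
    exact add_le_add hw hv
  · rw [Fin.sum_univ_add]
    simp only [Fin.append_left, Fin.append_right]

theorem ah_smul (w : ℂ) (hx : x ∈ AH G c) : w • x ∈ AH G (‖w‖ * c) := by
  obtain ⟨m, v, g, hg, hw, rfl⟩ := hx
  refine ⟨m, fun i => w * v i, g, hg, ?_, ?_⟩
  · simp only [norm_mul]
    rw [← Finset.mul_sum]
    exact mul_le_mul_of_nonneg_left hw (norm_nonneg _)
  · simp [Finset.smul_sum, mul_smul]

theorem ah_sum {ι : Type*} (s : Finset ι) (f : ι → W) (e : ι → ℝ)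
    (h : ∀ i ∈ s, f i ∈ AH G (e i)) : ∑ i ∈ s, f i ∈ AH G (∑ i ∈ s, e i) := by
  classical
  induction s using Finset.induction_on with
  | empty => simpa using ah_zero (G := G) le_rfl
  | insert a s ha ih =>
    rw [Finset.sum_insert ha, Finset.sum_insert ha]
    exact ah_add (h a (Finset.mem_insert_self a s))
      (ih fun i hi => h i (Finset.mem_insert_of_mem hi))

/-- Weighted sums. -/
theorem ah_wsum {ι : Type*} (s : Finset ι) (w : ι → ℂ) (f : ι → W) (hd : 0 ≤ d)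
    (h : ∀ i ∈ s, w i ≠ 0 → f i ∈ AH G d) (hw : ∑ i ∈ s, ‖w i‖ ≤ c) :
    ∑ i ∈ s, w i • f i ∈ AH G (c * d) := by
  refine ah_mono ?_ (ah_sum s (fun i => w i • f i) (fun i => ‖w i‖ * d) ?_)
  · rw [← Finset.sum_mul]
    exact mul_le_mul_of_nonneg_right hw hd
  · intro i hi
    by_cases h0 : w i = 0
    · simpa [h0] using ah_zero (G := G) le_rfl
    · exact ah_smul _ (h i hi h0)

theorem ah_bind (hx : x ∈ AH G c) (hd : 0 ≤ d) (h : ∀ g ∈ G, g ∈ AH H d) :
    x ∈ AH H (c * d) := by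
  obtain ⟨m, w, g, hg, hw, rfl⟩ := hx
  exact ah_wsum _ w g hd (fun i _ _ => h _ (hg i)) hw

theorem ah_map {V : Type*} [AddCommGroup V] [Module ℂ V] (f : W →ₗ[ℂ] V)
    (hx : x ∈ AH G c) : f x ∈ AH (f '' G) c := by
  obtain ⟨m, w, g, hg, hw, rfl⟩ := hx
  exact ⟨m, w, fun i => f (g i), fun i => ⟨g i, hg i, rfl⟩, hw, by simp⟩

/-- Multilinear maps, all arguments. -/
theorem ah_multi {A : Type*} [AddCommGroup A] [Module ℂ A] {s : ℕ}
    (T : MultilinearMap ℂ (fun _ : Fin s => A) W) (K : Fin s → Set A) (e : Fin s → ℝ)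
    (P : Fin s → A) (hP : ∀ i, P i ∈ AH (K i) (e i)) :
    T P ∈ AH {x | ∃ Q : Fin s → A, (∀ i, Q i ∈ K i) ∧ x = T Q} (∏ i, e i) := by
  classical
  choose m w g hg hw hx using hP
  have h0 : ∀ i, 0 ≤ e i := fun i => (Finset.sum_nonneg fun j _ => norm_nonneg _).trans (hw i)
  have hT : T P = ∑ r : (∀ i, Fin (m i)), (∏ i, w i (r i)) • T (fun i => g i (r i)) := by
    have : P = fun i => ∑ j, w i j • g i j := funext hx
    rw [this, T.map_sum]
    refine Finset.sum_congr rfl fun r _ => ?_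
    rw [T.map_smul_univ]
  rw [hT]
  refine ah_mono ?_ (ah_wsum (c := ∏ i, e i) (d := 1) _ _ _ zero_le_one ?_ ?_)
  · simp
  · intro r _ _
    exact ah_of ⟨fun i => g i (r i), fun i => hg i _, rfl⟩
  · calc ∑ r : (∀ i, Fin (m i)), ‖∏ i, w i (r i)‖
        = ∑ r : (∀ i, Fin (m i)), ∏ i, ‖w i (r i)‖ := by simp [norm_prod]
      _ = ∏ i, ∑ j, ‖w i j‖ := by
        rw [Finset.prod_univ_sum]
        simp [Fintype.piFinset_univ]
      _ ≤ ∏ i, e i := Finset.prod_le_prod (fun i _ => Finset.sum_nonneg fun j _ => norm_nonneg _)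
        fun i _ => hw i

end Tk

theorem one_le_vv (s : ℕ) (hs : 1 ≤ s) : 1 ≤ vv s := by
  unfold vv TT
  exact Nat.one_le_pow _ _ (Nat.mul_pos hs (Nat.succ_pos _))

end Vale.Agent.P181.H818
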