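import Vale.Agent.P181.H818.AH

set_option autoImplicit false

namespace Vale.Agent.P181.H818

open Finset Vale.Agent.P181.H303

theorem rowTI (hTH : RowTH) : RowTI := by
  intro s hs L hL hL' A W _ _ _ _ T z N
  induction N generalizing T with
  | zero =>
    intro P hP
    refine ah_mono (by simp) (ah_of ?_)
    exact ⟨fun _ => 0, P, by simp, fun i => by simpa using hP i, by simp⟩
  | succ N ih =>
    intro P hP
    have h1 := hTH s hs L hL hL' A W T z ((s - 1) * (s - 1) + N) (Nat.le_add_right _ _) P hP
    have hv : (1 : ℝ) ≤ vv s := by exact_mod_cast one_le_vv s hs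
    have hv0 : (0 : ℝ) ≤ (vv s : ℝ) ^ (s * (s * s) * N) := by positivity
    refine ah_mono (le_of_eq ?_) (ah_bind h1 hv0 ?_)
    · rw [← pow_add]; congr 1; ring
    · rintro _ ⟨t, Q, hQ, rfl⟩
      have h2 := ih (T.compLinearMap fun _ => LinearMap.mulLeft ℂ (∑ j, L t j • z j)) Q hQ
      refine ah_sub ?_ h2
      rintro _ ⟨μ, R, hμ, hR, rfl⟩
      refine ⟨fun u => μ u + if u = t then 1 else 0, R, ?_, hR, ?_⟩
      · rw [Finset.sum_add_distrib, hμ]; simp
      · rw [MultilinearMap.compLinearMap_apply]
        congr 1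
        funext i
        simp only [LinearMap.mulLeft_apply, pow_add, Finset.prod_mul_distrib]
        rw [Finset.prod_eq_single (f := fun u => (∑ j, L u j • z j) ^ (if u = t then 1 else 0)) t]
        · simp; ring
        · intro b _ hb; simp [hb]
        · simp

end Vale.Agent.P181.H818
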